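import Vale.Agent.P045.Five

/-- Covers against matchings in `r`-partite `r`-uniform hypergraphs of bounded degree: maximum
degree three (`r ≥ 6`), four (`r ≥ 9`) and five (`r ≥ 19`), a general bound for maximum degree
`D ≥ 2`, and hypergraphs whose degrees are `D - 1` or `D` with `D ≤ r - 1`, or in which some part
contains a vertex of largest degree of every edge. -/
theorem Vale.Agent.Results.P045.BoundedDegree.result (r : ℕ) (hr : 2 ≤ r) (V : Type) [Fintype V]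
    [DecidableEq V] (H : Ryser.Hyper r V) :
    (6 ≤ r → (∀ v, Ryser.deg H v ≤ 3) → Ryser.tau H ≤ (r - 1) * Ryser.nu H) ∧
    (9 ≤ r → (∀ v, Ryser.deg H v ≤ 4) → Ryser.tau H ≤ (r - 1) * Ryser.nu H) ∧
    (19 ≤ r → (∀ v, Ryser.deg H v ≤ 5) → Ryser.tau H ≤ (r - 1) * Ryser.nu H) ∧
    (∀ D : ℕ, 2 ≤ D → (∀ v, Ryser.deg H v ≤ D) →
      8 * D * r * Ryser.tau H ≤ (((D + 1) * r + 1) ^ 2 + 4 * D * r) * Ryser.nu H) ∧
    (∀ D : ℕ, 1 ≤ D → D + 1 ≤ r →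
      (∀ e ∈ H.E, ∀ v ∈ e, D ≤ Ryser.deg H v + 1 ∧ Ryser.deg H v ≤ D) →
      Ryser.tau H ≤ (r - 1) * Ryser.nu H) ∧
    (∀ s : Fin r, (∀ e ∈ H.E, ∀ v ∈ e, ∀ u ∈ e, H.part u = s → Ryser.deg H v ≤ Ryser.deg H u) →
      (∀ v, Ryser.deg H v + 1 ≤ r) → Ryser.tau H ≤ (r - 1) * Ryser.nu H) := by
  have hr1 : 1 ≤ r := by omega
  refine ⟨?_, ?_, ?_, ?_, ?_, ?_⟩
  · intro h6 hdeg
    exact Ryser.to_nat H hr1 (Ryser.deg_three H h6 hdeg)
  · intro h9 hdeg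
    exact Ryser.max_four H h9 hdeg
  · intro h19 hdeg
    exact Ryser.max_five H h19 hdeg
  · intro D hD hdeg
    exact Ryser.five_nat H hr1 D hD hdeg
  · intro D hD hDr hdeg
    exact Ryser.to_nat H hr1 (Ryser.near_regular H D hD hDr hdeg)
  · intro s hs hdeg
    exact Ryser.dom_ryser H hr1 s hs hdeg hr
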