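import Vale.Agent.P045.Proof

/-- Covers against matchings in `r`-partite `r`-uniform hypergraphs, in terms of vertex degrees.
(1) degrees in `{D - 1, D}`, `D ≤ r - 1`; (2) some part contains a vertex of largest degree of every
edge and all degrees are at most `r - 1`; (3) the quantitative form of (2) for any degree bound `D`;
(4) maximum degree three, `r ≥ 6`; (5) degrees between `d` and `D`; (6) the weighted criterion. -/
theorem Vale.Agent.Results.P045.DegreeClasses.result (r : ℕ) (hr : 2 ≤ r) (V : Type) [Fintype V]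
    [DecidableEq V] (H : Ryser.Hyper r V) :
    (∀ D : ℕ, 1 ≤ D → D + 1 ≤ r →
      (∀ e ∈ H.E, ∀ v ∈ e, D ≤ Ryser.deg H v + 1 ∧ Ryser.deg H v ≤ D) →
      Ryser.tau H ≤ (r - 1) * Ryser.nu H) ∧
    (∀ s : Fin r, (∀ e ∈ H.E, ∀ v ∈ e, ∀ u ∈ e, H.part u = s → Ryser.deg H v ≤ Ryser.deg H u) →
      (∀ v, Ryser.deg H v + 1 ≤ r) → Ryser.tau H ≤ (r - 1) * Ryser.nu H) ∧
    (∀ s : Fin r, (∀ e ∈ H.E, ∀ v ∈ e, ∀ u ∈ e, H.part u = s → Ryser.deg H v ≤ Ryser.deg H u) →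
      ∀ D : ℕ, 1 ≤ D → (∀ v, Ryser.deg H v ≤ D) →
        D * Ryser.tau H ≤ (1 + r * (D - 1)) * Ryser.nu H) ∧
    (6 ≤ r → (∀ v, Ryser.deg H v ≤ 3) → Ryser.tau H ≤ (r - 1) * Ryser.nu H) ∧
    (∀ d D : ℕ, 1 ≤ d → (∀ e ∈ H.E, ∀ v ∈ e, d ≤ Ryser.deg H v ∧ Ryser.deg H v ≤ D) →
      4 * r * d * D * Ryser.tau H ≤ (1 + r * (d + D - 1)) ^ 2 * Ryser.nu H) ∧
    (∀ (w : Fin r → ℝ) (K : ℝ), (∀ i, 0 ≤ w i) → ∑ i, w i = 1 →
      (∀ e ∈ H.E, (1 + ∑ v ∈ e, ((Ryser.deg H v : ℝ) - 1)) *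
        ∑ v ∈ e, w (H.part v) / Ryser.deg H v ≤ K) →
      (Ryser.tau H : ℝ) ≤ K * Ryser.nu H) := by
  have hr1 : 1 ≤ r := by omega
  refine ⟨?_, ?_, ?_, ?_, ?_, ?_⟩
  · intro D hD hDr hdeg
    exact Ryser.to_nat H hr1 (Ryser.near_regular H D hD hDr hdeg)
  · intro s hs hdeg
    exact Ryser.dom_ryser H hr1 s hs hdeg hr
  · intro s hs D hD hdeg
    exact Ryser.dom_nat H hr1 s hs D hD hdeg
  · intro h6 hdeg
    exact Ryser.to_nat H hr1 (Ryser.deg_three H h6 hdeg)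
  · intro d D hd hdeg
    exact Ryser.spread H hr1 d D hd hdeg
  · intro w K hw hw1 h
    exact Ryser.criterion H hr1 w hw hw1 K h
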