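import Mathlib

/-! # Ryser's inequality for uniform hypergraphs of small degree -/

namespace Vale.Agent.Results.P045.SmallDegree

open Finset

/-- number of edges through `v` -/
def deg {V : Type} [DecidableEq V] (H : Finset (Finset V)) (v : V) : ℕ :=
  (H.filter (fun e => v ∈ e)).card

/-- `M` is a set of pairwise disjoint edges of `H` -/
def IsMatching {V : Type} [DecidableEq V] (H M : Finset (Finset V)) : Prop :=
  M ⊆ H ∧ ∀ e ∈ M, ∀ f ∈ M, e ≠ f → Disjoint e f

/-- `C` meets every edge of `H` -/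
def IsCover {V : Type} [DecidableEq V] (H : Finset (Finset V)) (C : Finset V) : Prop :=
  ∀ e ∈ H, ∃ v ∈ C, v ∈ e

/-- matching number -/
noncomputable def nu {V : Type} [DecidableEq V] (H : Finset (Finset V)) : ℕ :=
  sSup {n | ∃ M : Finset (Finset V), IsMatching H M ∧ M.card = n}

/-- covering number -/
noncomputable def tau {V : Type} [DecidableEq V] (H : Finset (Finset V)) : ℕ :=
  sInf {n | ∃ C : Finset V, IsCover H C ∧ C.card = n}

variable {V : Type} [DecidableEq V]

theorem le_nu {H M : Finset (Finset V)} (h : IsMatching H M) : M.card ≤ nu H := by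
  refine le_csSup ?_ ⟨M, h, rfl⟩
  refine ⟨H.card, ?_⟩
  rintro n ⟨M', hM', rfl⟩
  exact Finset.card_le_card hM'.1

theorem tau_le {H : Finset (Finset V)} {C : Finset V} (h : IsCover H C) : tau H ≤ C.card :=
  Nat.sInf_le ⟨C, h, rfl⟩

theorem matching_mono {H H' M : Finset (Finset V)} (hs : H' ⊆ H) (h : IsMatching H' M) :
    IsMatching H M := ⟨h.1.trans hs, h.2⟩

theorem deg_mono {H H' : Finset (Finset V)} (hs : H' ⊆ H) (v : V) : deg H' v ≤ deg H v :=
  Finset.card_le_card (Finset.filter_subset_filter _ hs)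

/-- greedy matching -/
theorem match_bound (r j : ℕ) (hr : 1 ≤ r) (H : Finset (Finset V)) :
    (∀ e ∈ H, e.card = r) → (∀ v, deg H v ≤ j + 1) →
      ∃ M, IsMatching H M ∧ H.card ≤ (r * j + 1) * M.card := by
  induction H using Finset.strongInduction with
  | H H ih =>
    intro hu hd
    by_cases hH : H = ∅
    · subst hH
      exact ⟨∅, ⟨subset_rfl, by simp⟩, by simp⟩
    · obtain ⟨e, he⟩ := Finset.nonempty_iff_ne_empty.2 hH
      have hne : e.Nonempty := by
        rw [← Finset.card_pos, hu e he]; omega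
      have hnd : ¬ Disjoint e e := by
        rw [disjoint_self]
        exact Finset.nonempty_iff_ne_empty.1 hne
      set H' := H.filter (fun f => Disjoint e f) with hH'
      have hsub : H' ⊆ H := Finset.filter_subset _ _
      have hss : H' ⊂ H := by
        refine Finset.ssubset_iff_subset_ne.2 ⟨hsub, fun h => ?_⟩
        have : e ∈ H' := by rw [h]; exact he
        rw [hH', Finset.mem_filter] at this
        exact hnd this.2
      obtain ⟨M', hM', hc⟩ := ih H' hss (fun f hf => hu f (hsub hf))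
        (fun v => (deg_mono hsub v).trans (hd v))
      have heM : e ∉ M' := by
        intro h
        have := hM'.1 h
        rw [hH', Finset.mem_filter] at this
        exact hnd this.2
      refine ⟨insert e M', ⟨?_, ?_⟩, ?_⟩
      · intro f hf
        rw [Finset.mem_insert] at hf
        rcases hf with h | h
        · rw [h]; exact he
        · exact hsub (hM'.1 h)
      · intro f hf g hg hfg
        rw [Finset.mem_insert] at hf hg
        rcases hf with h | h <;> rcases hg with h' | h'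
        · exact absurd (h.trans h'.symm) hfg
        · rw [h]
          exact (Finset.mem_filter.1 (hM'.1 h')).2
        · rw [h']
          exact (Finset.mem_filter.1 (hM'.1 h)).2.symm
        · exact hM'.2 f h g h' hfg
      · rw [Finset.card_insert_of_notMem heM]
        have h1 : H.card = H'.card + (H.filter (fun f => ¬ Disjoint e f)).card := by
          rw [hH', Finset.card_filter_add_card_filter_not]
        have h2 : H.filter (fun f => ¬ Disjoint e f)
            ⊆ insert e (e.biUnion (fun v => (H.filter (fun f => v ∈ f)).erase e)) := by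
          intro f hf
          rw [Finset.mem_filter] at hf
          rw [Finset.mem_insert]
          by_cases hfe : f = e
          · exact Or.inl hfe
          · right
            obtain ⟨v, hv1, hv2⟩ := Finset.not_disjoint_iff.1 hf.2
            rw [Finset.mem_biUnion]
            exact ⟨v, hv1, Finset.mem_erase.2 ⟨hfe, Finset.mem_filter.2 ⟨hf.1, hv2⟩⟩⟩
        have h3 : (e.biUnion (fun v => (H.filter (fun f => v ∈ f)).erase e)).card ≤ r * j := by
          refine Finset.card_biUnion_le.trans ?_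
          refine (Finset.sum_le_card_nsmul e _ j fun v hv => ?_).trans ?_
          · rw [Finset.card_erase_of_mem (Finset.mem_filter.2 ⟨he, hv⟩)]
            have := hd v
            unfold deg at this
            omega
          · rw [hu e he, smul_eq_mul]
        have h4 := (Finset.card_le_card h2).trans (Finset.card_insert_le _ _)
        have h5 : (r * j + 1) * (M'.card + 1) = (r * j + 1) * M'.card + (r * j + 1) := by ring
        omega

/-- greedy choice of vertices of degree at least `d + 1` -/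
theorem greedy (d : ℕ) (H : Finset (Finset V)) :
    ∃ (C : Finset V) (H' : Finset (Finset V)), H' ⊆ H ∧
      (∀ v, deg H' v ≤ d) ∧ H'.card + (d + 1) * C.card ≤ H.card ∧
      ∀ e ∈ H, e ∈ H' ∨ ∃ v ∈ C, v ∈ e := by
  induction H using Finset.strongInduction with
  | H H ih =>
    by_cases h : ∀ v, deg H v ≤ d
    · exact ⟨∅, H, subset_rfl, h, by simp, fun e he => Or.inl he⟩
    · push Not at h
      obtain ⟨v, hv⟩ := h
      set H1 := H.filter (fun e => ¬ v ∈ e) with hH1
      have hsub : H1 ⊆ H := Finset.filter_subset _ _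
      have hcard0 : H.card = deg H v + H1.card := by
        rw [hH1]
        unfold deg
        rw [Finset.card_filter_add_card_filter_not]
      have hcard : (d + 1) + H1.card ≤ H.card := by omega
      have hss : H1 ⊂ H := by
        refine Finset.ssubset_iff_subset_ne.2 ⟨hsub, fun h => ?_⟩
        rw [h] at hcard
        omega
      obtain ⟨C, H', h1, h2, h3, h4⟩ := ih H1 hss
      refine ⟨insert v C, H', h1.trans hsub, h2, ?_, ?_⟩
      · have h5 := Finset.card_insert_le v C
        have h6 : (d + 1) * (insert v C).card ≤ (d + 1) * (C.card + 1) :=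
          Nat.mul_le_mul_left _ h5
        have h7 : (d + 1) * (C.card + 1) = (d + 1) * C.card + (d + 1) := by ring
        omega
      · intro e he
        by_cases hve : v ∈ e
        · exact Or.inr ⟨v, Finset.mem_insert_self _ _, hve⟩
        · rcases h4 e (Finset.mem_filter.2 ⟨he, hve⟩) with h5 | ⟨w, hw, hwe⟩
          · exact Or.inl h5
          · exact Or.inr ⟨w, Finset.mem_insert_of_mem hw, hwe⟩

theorem empty_of_deg {r : ℕ} (hr : 1 ≤ r) {H : Finset (Finset V)} (hu : ∀ e ∈ H, e.card = r)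
    (h : ∀ v, deg H v ≤ 0) : H = ∅ := by
  by_contra hne
  obtain ⟨e, he⟩ := Finset.nonempty_iff_ne_empty.2 hne
  have : e.Nonempty := by rw [← Finset.card_pos, hu e he]; omega
  obtain ⟨v, hv⟩ := this
  have h1 := h v
  unfold deg at h1
  rw [Nat.le_zero, Finset.card_eq_zero] at h1
  have : e ∈ H.filter (fun e => v ∈ e) := Finset.mem_filter.2 ⟨he, hv⟩
  rw [h1] at this
  exact absurd this (Finset.notMem_empty _)

/-- two levels -/
theorem two (r : ℕ) (hr : 1 ≤ r) (H : Finset (Finset V)) (hu : ∀ e ∈ H, e.card = r) : ∃ C, IsCover H C ∧ 2 * C.card ≤ H.card + nu H := by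
  obtain ⟨C2, H1, s1, d1, c1, k1⟩ := greedy 1 H
  obtain ⟨C1, H0, s0, d0, c0, k0⟩ := greedy 0 H1
  have hu1 : ∀ e ∈ H1, e.card = r := fun e he => hu e (s1 he)
  have hu0 : ∀ e ∈ H0, e.card = r := fun e he => hu1 e (s0 he)
  have e0 := empty_of_deg hr hu0 d0
  obtain ⟨M1, m1, b1⟩ := match_bound r 0 hr H1 hu1 d1
  have n1 := le_nu (matching_mono s1 m1)
  refine ⟨C2 ∪ C1, ?_, ?_⟩
  · intro e he
    rcases k1 e he with h | ⟨v, hv, hve⟩
    · rcases k0 e h with h' | ⟨v, hv, hve⟩
      · rw [e0] at h'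
        exact absurd h' (Finset.notMem_empty _)
      · exact ⟨v, Finset.mem_union_right _ hv, hve⟩
    · exact ⟨v, Finset.mem_union_left _ hv, hve⟩
  · have := Finset.card_union_le C2 C1
    simp only [mul_zero, zero_add, one_mul] at b1
    omega

/-- four levels -/
theorem four (r : ℕ) (hr : 1 ≤ r) (H : Finset (Finset V)) (hu : ∀ e ∈ H, e.card = r) :
    12 * tau H ≤ 3 * H.card + (4 * r + 9) * nu H := by
  obtain ⟨C4, H3, s3, d3, c3, k3⟩ := greedy 3 H
  have hu3 : ∀ e ∈ H3, e.card = r := fun e he => hu e (s3 he)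
  obtain ⟨C3, H2, s2, d2, c2, k2⟩ := greedy 2 H3
  have hu2 : ∀ e ∈ H2, e.card = r := fun e he => hu3 e (s2 he)
  obtain ⟨C2, H1, s1, d1, c1, k1⟩ := greedy 1 H2
  have hu1 : ∀ e ∈ H1, e.card = r := fun e he => hu2 e (s1 he)
  obtain ⟨C1, H0, s0, d0, c0, k0⟩ := greedy 0 H1
  have hu0 : ∀ e ∈ H0, e.card = r := fun e he => hu1 e (s0 he)
  have e0 := empty_of_deg hr hu0 d0
  obtain ⟨M3, m3, b3⟩ := match_bound r 2 hr H3 hu3 d3
  obtain ⟨M2, m2, b2⟩ := match_bound r 1 hr H2 hu2 d2
  obtain ⟨M1, m1, b1⟩ := match_bound r 0 hr H1 hu1 d1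
  have n3 := le_nu (matching_mono s3 m3)
  have n2 := le_nu (matching_mono (s2.trans s3) m2)
  have n1 := le_nu (matching_mono ((s1.trans s2).trans s3) m1)
  have hcov : IsCover H (C4 ∪ (C3 ∪ (C2 ∪ C1))) := by
    intro e he
    rcases k3 e he with h0 | ⟨v, hv, hve⟩
    · rcases k2 e h0 with h | ⟨v, hv, hve⟩
      · rcases k1 e h with h' | ⟨v, hv, hve⟩
        · rcases k0 e h' with h'' | ⟨v, hv, hve⟩
          · rw [e0] at h''
            exact absurd h'' (Finset.notMem_empty _)
          · exact ⟨v, Finset.mem_union_right _ (Finset.mem_union_right _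
              (Finset.mem_union_right _ hv)), hve⟩
        · exact ⟨v, Finset.mem_union_right _ (Finset.mem_union_right _
            (Finset.mem_union_left _ hv)), hve⟩
      · exact ⟨v, Finset.mem_union_right _ (Finset.mem_union_left _ hv), hve⟩
    · exact ⟨v, Finset.mem_union_left _ hv, hve⟩
  have ht := tau_le hcov
  have u0 := Finset.card_union_le C4 (C3 ∪ (C2 ∪ C1))
  have u1 := Finset.card_union_le C3 (C2 ∪ C1)
  have u2 := Finset.card_union_le C2 C1
  have f3 : H3.card ≤ (r * 2 + 1) * nu H := b3.trans (Nat.mul_le_mul_left _ n3)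
  have f2 : H2.card ≤ (r * 1 + 1) * nu H := b2.trans (Nat.mul_le_mul_left _ n2)
  have f1 : H1.card ≤ (r * 0 + 1) * nu H := b1.trans (Nat.mul_le_mul_left _ n1)
  nlinarith

/-- maximum degree three -/
theorem three (r : ℕ) (hr : 1 ≤ r) (H : Finset (Finset V)) (hu : ∀ e ∈ H, e.card = r)
    (hd : ∀ v, deg H v ≤ 3) : 6 * tau H ≤ (5 * r + 6) * nu H := by
  obtain ⟨C3, H2, s2, d2, c2, k2⟩ := greedy 2 H
  have hu2 : ∀ e ∈ H2, e.card = r := fun e he => hu e (s2 he)
  obtain ⟨C2, H1, s1, d1, c1, k1⟩ := greedy 1 H2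
  have hu1 : ∀ e ∈ H1, e.card = r := fun e he => hu2 e (s1 he)
  obtain ⟨C1, H0, s0, d0, c0, k0⟩ := greedy 0 H1
  have hu0 : ∀ e ∈ H0, e.card = r := fun e he => hu1 e (s0 he)
  have e0 := empty_of_deg hr hu0 d0
  obtain ⟨M3, m3, b3⟩ := match_bound r 2 hr H hu hd
  obtain ⟨M2, m2, b2⟩ := match_bound r 1 hr H2 hu2 d2
  obtain ⟨M1, m1, b1⟩ := match_bound r 0 hr H1 hu1 d1
  have n3 := le_nu m3
  have n2 := le_nu (matching_mono s2 m2)
  have n1 := le_nu (matching_mono (s1.trans s2) m1)
  have hcov : IsCover H (C3 ∪ (C2 ∪ C1)) := by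
    intro e he
    rcases k2 e he with h | ⟨v, hv, hve⟩
    · rcases k1 e h with h' | ⟨v, hv, hve⟩
      · rcases k0 e h' with h'' | ⟨v, hv, hve⟩
        · rw [e0] at h''
          exact absurd h'' (Finset.notMem_empty _)
        · exact ⟨v, Finset.mem_union_right _ (Finset.mem_union_right _ hv), hve⟩
      · exact ⟨v, Finset.mem_union_right _ (Finset.mem_union_left _ hv), hve⟩
    · exact ⟨v, Finset.mem_union_left _ hv, hve⟩
  have ht := tau_le hcov
  have u1 := Finset.card_union_le C3 (C2 ∪ C1)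
  have u2 := Finset.card_union_le C2 C1
  have f3 : H.card ≤ (r * 2 + 1) * nu H := b3.trans (Nat.mul_le_mul_left _ n3)
  have f2 : H2.card ≤ (r * 1 + 1) * nu H := b2.trans (Nat.mul_le_mul_left _ n2)
  have f1 : H1.card ≤ (r * 0 + 1) * nu H := b1.trans (Nat.mul_le_mul_left _ n1)
  nlinarith

theorem nu_le_one {H : Finset (Finset V)} (hi : ∀ e ∈ H, ∀ f ∈ H, ¬ Disjoint e f) :
    nu H ≤ 1 := by
  refine csSup_le ⟨0, ∅, ⟨Finset.empty_subset _, by simp⟩, by simp⟩ ?_
  rintro n ⟨M, hM, rfl⟩
  rw [Finset.card_le_one]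
  intro a ha b hb
  by_contra hab
  exact hi a (hM.1 ha) b (hM.1 hb) (hM.2 a ha b hb hab)

theorem result :
    (∀ (V : Type) [DecidableEq V] (H : Finset (Finset V)) (r : ℕ), 1 ≤ r →
      (∀ e ∈ H, e.card = r) → 12 * tau H ≤ 3 * H.card + (4 * r + 9) * nu H) ∧
    (∀ (V : Type) [DecidableEq V] (H : Finset (Finset V)) (r : ℕ), 1 ≤ r →
      (∀ e ∈ H, e.card = r) → 3 * H.card + 21 * nu H ≤ 8 * r * nu H →
      tau H ≤ (r - 1) * nu H) ∧
    (∀ (V : Type) [DecidableEq V] (H : Finset (Finset V)) (r : ℕ), 4 ≤ r →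
      (∀ e ∈ H, e.card = r) → (∀ v, deg H v ≤ 2) → tau H ≤ (r - 1) * nu H) ∧
    (∀ (V : Type) [DecidableEq V] (H : Finset (Finset V)) (r : ℕ), 12 ≤ r →
      (∀ e ∈ H, e.card = r) → (∀ v, deg H v ≤ 3) → tau H ≤ (r - 1) * nu H) ∧
    (∀ (V : Type) [DecidableEq V] (H : Finset (Finset V)) (r : ℕ), 7 ≤ r →
      (∀ e ∈ H, e.card = r) → (∀ v, deg H v ≤ 3) →
      (∀ e ∈ H, ∀ f ∈ H, ¬ Disjoint e f) → tau H ≤ r - 1) ∧
    (∀ (V : Type) [DecidableEq V] (H : Finset (Finset V)) (r : ℕ), 1 ≤ r →
      (∀ e ∈ H, e.card = r) → (∀ v, deg H v ≤ 3) → 6 * tau H ≤ (5 * r + 6) * nu H) := by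
  refine ⟨?_, ?_, ?_, ?_, ?_, ?_⟩
  · intro V _ H r hr hu
    exact four r hr H hu
  · intro V _ H r hr hu hm
    have h := four r hr H hu
    obtain ⟨s, rfl⟩ : ∃ s, r = s + 1 := ⟨r - 1, by omega⟩
    have e1 : s + 1 - 1 = s := by omega
    rw [e1]
    nlinarith
  · intro V _ H r hr hu hd
    obtain ⟨C, hC, h1⟩ := two r (by omega) H hu
    obtain ⟨M, hM, h2⟩ := match_bound r 1 (by omega) H hu hd
    have h3 := le_nu hM
    have h4 : H.card ≤ (r * 1 + 1) * nu H := h2.trans (Nat.mul_le_mul_left _ h3)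
    have h5 := tau_le hC
    obtain ⟨s, rfl⟩ : ∃ s, r = s + 4 := ⟨r - 4, by omega⟩
    have e1 : s + 4 - 1 = s + 3 := by omega
    rw [e1]
    nlinarith [Nat.zero_le (s * nu H)]
  · intro V _ H r hr hu hd
    have h := three r (by omega) H hu hd
    obtain ⟨s, rfl⟩ : ∃ s, r = s + 12 := ⟨r - 12, by omega⟩
    have e1 : s + 12 - 1 = s + 11 := by omega
    rw [e1]
    nlinarith [Nat.zero_le (s * nu H)]
  · intro V _ H r hr hu hd hi
    have h := three r (by omega) H hu hd
    have h1 := nu_le_one hi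
    have h2 : (5 * r + 6) * nu H ≤ (5 * r + 6) * 1 := Nat.mul_le_mul_left _ h1
    omega
  · intro V _ H r hr hu hd
    exact three r hr H hu hd

end Vale.Agent.Results.P045.SmallDegree
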